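import Mathlib
import Vale.Agent.Lib.P243b.Final

open MeasureTheory Module
open scoped ENNReal

noncomputable section

namespace Vale.Agent.Results.P243.OneThirdPlus

variable {E : Type*} [NormedAddCommGroup E] [InnerProductSpace ℝ E] [FiniteDimensional ℝ E]
  [MeasurableSpace E] [BorelSpace E]

/-- The plane orthogonal to `u`. -/
def Perp (u : E) : Submodule ℝ E := (Submodule.span ℝ {u})ᗮ

/-- The orthogonal projection onto the plane orthogonal to `u`. -/
def proj (u : E) (z : E) : Perp u := (Perp u).orthogonalProjectionOnto z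

/-- Area (Lebesgue measure of the inner product space `Perp u`) in the plane orthogonal to `u`. -/
def area (u : E) (S : Set (Perp u)) : ℝ≥0∞ := volume S

/-- Let `K` be a convex body in a three-dimensional Euclidean space `E`. For any finite family of
cylinders (`z` lies in the `i`-th one when `proj (u i) z ∈ B i`, with `u i` a unit vector and `B i`
a measurable subset of the plane orthogonal to `u i`) covering `K`, the sum of the ratios of the
base area to the area of the orthogonal projection of `K` along `u i` is at least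
`1 / 3 + 1 / 10 ^ 66`. -/
theorem result (hE : finrank ℝ E = 3) (K : Set E) (hKc : IsCompact K) (hKv : Convex ℝ K)
    (hKi : (interior K).Nonempty)
    {m : ℕ} (u : Fin m → E) (hu : ∀ i, ‖u i‖ = 1)
    (B : ∀ i, Set (Perp (u i))) (hB : ∀ i, MeasurableSet (B i))
    (hcov : K ⊆ ⋃ i, {z | proj (u i) z ∈ B i}) :
    (1 / 3 + 1 / 10 ^ 66 : ℝ≥0∞) ≤ ∑ i, area (u i) (B i) / area (u i) (proj (u i) '' K) := by
  have h := Vale.Agent.Lib.P243b.main_bound hE hKc hKv hKi u hu B hB hcov
  have e : ENNReal.ofReal (1 / 3 + 1 / 10 ^ 66) = (1 / 3 + 1 / 10 ^ 66 : ℝ≥0∞) := by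
    rw [ENNReal.ofReal_add (by norm_num) (by norm_num),
      ENNReal.ofReal_div_of_pos (by norm_num), ENNReal.ofReal_div_of_pos (by norm_num),
      ENNReal.ofReal_one, ENNReal.ofReal_pow (by norm_num)]
    norm_num
  rw [e] at h
  exact h

end Vale.Agent.Results.P243.OneThirdPlus
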