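import Mathlib
import Vale.Agent.Lib.P243.Final

open MeasureTheory Module
open scoped ENNReal

noncomputable section

namespace Vale.Agent.Results.P243.SymmetricFiveTwelfths

variable {E : Type*} [NormedAddCommGroup E] [InnerProductSpace ℝ E] [FiniteDimensional ℝ E]
  [MeasurableSpace E] [BorelSpace E]

/-- The plane orthogonal to `u`. -/
def Perp (u : E) : Submodule ℝ E := (Submodule.span ℝ {u})ᗮ

/-- The orthogonal projection onto the plane orthogonal to `u`. -/
def proj (u : E) (z : E) : Perp u := (Perp u).orthogonalProjectionOnto z

/-- Area (Lebesgue measure of the inner product space `Perp u`) in the plane orthogonal to `u`. -/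
def area (u : E) (S : Set (Perp u)) : ℝ≥0∞ := volume S

/-- Let `K` be a centrally symmetric convex body in a three-dimensional Euclidean space `E`. For
any finite family of cylinders (`z` lies in the `i`-th one when `proj (u i) z ∈ B i`, with `u i` a
unit vector and `B i` a measurable subset of the plane orthogonal to `u i`) covering `K`, the sum of
the ratios of the base area to the area of the orthogonal projection of `K` along `u i` is at least
`5/12`. -/
theorem result (hE : finrank ℝ E = 3) (K : Set E) (hKc : IsCompact K) (hKv : Convex ℝ K)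
    (hKi : (interior K).Nonempty) (hKs : ∀ x ∈ K, -x ∈ K)
    {m : ℕ} (u : Fin m → E) (hu : ∀ i, ‖u i‖ = 1)
    (B : ∀ i, Set (Perp (u i))) (hB : ∀ i, MeasurableSet (B i))
    (hcov : K ⊆ ⋃ i, {z | proj (u i) z ∈ B i}) :
    (5 / 12 : ℝ≥0∞) ≤ ∑ i, area (u i) (B i) / area (u i) (proj (u i) '' K) :=
  Vale.Agent.Lib.P243.five_twelfths hE hKc hKv hKi hKs u hu B hB hcov

end Vale.Agent.Results.P243.SymmetricFiveTwelfths
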